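import Vale.Agent.P340.Usable

/-!
# P340 (Barendregt-Geuvers-Klop conjecture): critical counterexamples
-/

namespace Vale.Agent.Results.P340.CriticalSpecs

open Vale.Agent.P340

universe u v

/-- (1) A pure type system is weakly (strongly) normalizing iff all its parts with finitely many
axioms and rules are. (2) Both properties are inherited along maps of sorts that preserve axioms
and rules. (3) If a weakly normalizing specification is not strongly normalizing, then it contains
one with finitely many sorts which is weakly normalizing, not strongly normalizing, and all of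
whose proper parts are strongly normalizing. (4) The conjecture holds iff it holds for all
specifications with finitely many sorts. (5) If it fails, there is a counterexample with finitely
many sorts in which every sort occurs, there is a rule, every rule is usable, all proper parts are
strongly normalizing, and which has no map that identifies two sorts to a weakly normalizing
specification. -/
theorem result :
    (∀ (S : Type u) (P : Spec S),
      (WN P ↔ ∀ P0, Sub P0 P → Fini P0 → WN P0) ∧ (SN P ↔ ∀ P0, Sub P0 P → Fini P0 → SN P0)) ∧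
    (∀ (S : Type u) (T : Type v) (h : S → T) (P : Spec S) (Q : Spec T), IsMorphism h P Q →
      (WN Q → WN P) ∧ (SN Q → SN P)) ∧
    (∀ (S : Type u) (P : Spec S), WN P → ¬ SN P →
      ∃ (n : ℕ) (h : Fin n → S) (P0 : Spec (Fin n)), Function.Injective h ∧ IsMorphism h P0 P ∧
        WN P0 ∧ ¬ SN P0 ∧ ∀ Q, Sub Q P0 → Q ≠ P0 → SN Q) ∧
    ((∀ (S : Type u) (P : Spec S), WN P → SN P) ↔
      ∀ (n : ℕ) (P : Spec (Fin n)), WN P → SN P) ∧
    ((∃ (S : Type u) (P : Spec S), WN P ∧ ¬ SN P) →
      ∃ (n : ℕ) (P : Spec (Fin n)), WN P ∧ ¬ SN P ∧ sorts P = Set.univ ∧ P.rules.Nonempty ∧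
        (∀ s₁ s₂ s₃, (s₁, s₂, s₃) ∈ P.rules →
          ∃ Γ A B, Typ P Γ A (Tm.sort s₁) ∧ Typ P (A :: Γ) B (Tm.sort s₂)) ∧
        (∀ Q, Sub Q P → Q ≠ P → SN Q) ∧
        ∀ (T : Type v) (k : Fin n → T) (Q : Spec T), IsMorphism k P Q →
          ¬ Function.Injective k → ¬ WN Q) := by
  refine ⟨fun _ P => ⟨wn_iff_fin P, sn_iff_fin P⟩,
    fun _ _ _ _ _ hm => ⟨wn_of_morphism hm, sn_of_morphism hm⟩,
    fun _ P hw hn => main_min P hw hn, main_iff, fun hex => ?_⟩
  obtain ⟨n, P, h1, h2, h3, h4, h5⟩ := critical hex
  refine ⟨n, P, h1, h2, h3, ?_, fun s₁ s₂ s₃ hr => usable h2 h4 hr, h4, h5⟩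
  by_contra hcon
  exact h2 (sn_of_no_rules (Set.not_nonempty_iff_eq_empty.1 hcon))

end Vale.Agent.Results.P340.CriticalSpecs
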