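import Vale.Agent.P340.Main

/-!
# P340 (Barendregt-Geuvers-Klop conjecture): reduction to finite specifications
-/

namespace Vale.Agent.Results.P340.FiniteSpecs

open Vale.Agent.P340

universe u v

/-- (1) A pure type system is weakly (strongly) normalizing iff all its parts with finitely many
axioms and rules are. (2) Weak and strong normalization are inherited along maps of sorts that
preserve axioms and rules. (3) If a weakly normalizing specification is not strongly normalizing,
then it contains one with finitely many sorts which is weakly normalizing, not strongly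
normalizing, and all of whose proper parts are strongly normalizing. (4) So the conjecture holds
iff it holds for all specifications with finitely many sorts. -/
theorem result :
    (∀ (S : Type u) (P : Spec S),
      (WN P ↔ ∀ P0, Sub P0 P → Fini P0 → WN P0) ∧ (SN P ↔ ∀ P0, Sub P0 P → Fini P0 → SN P0)) ∧
    (∀ (S : Type u) (T : Type v) (h : S → T) (P : Spec S) (Q : Spec T), IsMorphism h P Q →
      (WN Q → WN P) ∧ (SN Q → SN P)) ∧
    (∀ (S : Type u) (P : Spec S), WN P → ¬ SN P →
      ∃ (n : ℕ) (h : Fin n → S) (P0 : Spec (Fin n)), Function.Injective h ∧ IsMorphism h P0 P ∧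
        WN P0 ∧ ¬ SN P0 ∧ ∀ Q, Sub Q P0 → Q ≠ P0 → SN Q) ∧
    ((∀ (S : Type u) (P : Spec S), WN P → SN P) ↔
      ∀ (n : ℕ) (P : Spec (Fin n)), WN P → SN P) :=
  ⟨fun _ P => ⟨wn_iff_fin P, sn_iff_fin P⟩,
    fun _ _ _ _ _ hm => ⟨wn_of_morphism hm, sn_of_morphism hm⟩,
    fun _ P hw hn => main_min P hw hn, main_iff⟩

end Vale.Agent.Results.P340.FiniteSpecs
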